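import Mathlib

/-!
Weighted families of cuts on a finite set and their cut semimetrics; a one-point extension
lemma over at most three anchors.
-/

namespace Vale.Agent.H63

open Finset

variable {V : Type*} [Fintype V] [DecidableEq V]

/-- The cut semimetric of a weight function on the cuts (two-colourings) of `V`. -/
def cutDist (w : (V → Bool) → ℝ) (x y : V) : ℝ :=
  ∑ s : V → Bool, if s x ≠ s y then w s else 0

/-- Separation indicator. -/
def sep (s : V → Bool) (x y : V) : ℝ := if s x ≠ s y then 1 else 0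

theorem cutDist_eq (w : (V → Bool) → ℝ) (x y : V) :
    cutDist w x y = ∑ s : V → Bool, w s * sep s x y := by
  unfold cutDist sep
  apply Finset.sum_congr rfl
  intro s _
  split_ifs <;> simp

theorem cutDist_self (w : (V → Bool) → ℝ) (x : V) : cutDist w x x = 0 := by
  simp [cutDist]

theorem cutDist_comm (w : (V → Bool) → ℝ) (x y : V) : cutDist w x y = cutDist w y x := by
  unfold cutDist
  apply Finset.sum_congr rfl
  intro s _
  by_cases h : s x = s y
  · simp [h]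
  · have h' : ¬ s y = s x := fun e => h e.symm
    simp [h, h']

theorem cutDist_nonneg {w : (V → Bool) → ℝ} (hw : ∀ s, 0 ≤ w s) (x y : V) :
    0 ≤ cutDist w x y := by
  unfold cutDist
  apply Finset.sum_nonneg
  intro s _
  split_ifs
  · exact hw s
  · exact le_refl _

theorem cutDist_triangle {w : (V → Bool) → ℝ} (hw : ∀ s, 0 ≤ w s) (x y z : V) :
    cutDist w x z ≤ cutDist w x y + cutDist w y z := by
  unfold cutDist
  rw [← Finset.sum_add_distrib]
  apply Finset.sum_le_sum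
  intro s _
  have h := hw s
  by_cases h1 : s x = s y <;> by_cases h2 : s y = s z <;> by_cases h3 : s x = s z <;>
    simp_all


/-- Re-place the point `v`: every cut `s` of weight `w s` is split into the cut with `v` on the
`true` side (weight `w s * p s`) and the cut with `v` on the `false` side (weight
`w s * (1 - p s)`); in addition the cut isolating `v` gets the extra weight `W`. -/
def extend (w : (V → Bool) → ℝ) (v : V) (p : (V → Bool) → ℝ) (W : ℝ) : (V → Bool) → ℝ :=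
  fun s' =>
    (∑ s : V → Bool, if s' = Function.update s v true then w s * p s else 0)
    + (∑ s : V → Bool, if s' = Function.update s v false then w s * (1 - p s) else 0)
    + (if s' = (fun x => decide (x = v)) then W else 0)

theorem extend_nonneg {w : (V → Bool) → ℝ} (hw : ∀ s, 0 ≤ w s) (v : V)
    {p : (V → Bool) → ℝ} (hp0 : ∀ s, 0 ≤ p s) (hp1 : ∀ s, p s ≤ 1) {W : ℝ} (hW : 0 ≤ W)
    (s' : V → Bool) : 0 ≤ extend w v p W s' := by
  unfold extend
  refine add_nonneg (add_nonneg ?_ ?_) ?_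
  · apply Finset.sum_nonneg
    intro s _
    split_ifs
    · exact mul_nonneg (hw s) (hp0 s)
    · exact le_refl _
  · apply Finset.sum_nonneg
    intro s _
    split_ifs
    · exact mul_nonneg (hw s) (by linarith [hp1 s])
    · exact le_refl _
  · split_ifs
    · exact hW
    · exact le_refl _

theorem sum_ite_eq_mul (c : V → Bool) (a : ℝ) (F : (V → Bool) → ℝ) :
    ∑ s' : V → Bool, (if s' = c then a else 0) * F s' = a * F c := by
  have : ∀ s' : V → Bool, (if s' = c then a else 0) * F s' = if s' = c then a * F s' else 0 := by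
    intro s'
    split_ifs <;> simp
  simp only [this]
  rw [Finset.sum_ite_eq']
  simp

theorem sum_extend (w : (V → Bool) → ℝ) (v : V) (p : (V → Bool) → ℝ) (W : ℝ)
    (F : (V → Bool) → ℝ) :
    ∑ s' : V → Bool, extend w v p W s' * F s'
      = ∑ s : V → Bool, w s * (p s * F (Function.update s v true)
            + (1 - p s) * F (Function.update s v false))
        + W * F (fun x => decide (x = v)) := by
  unfold extend
  simp only [add_mul, Finset.sum_add_distrib, Finset.sum_mul]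
  rw [sum_ite_eq_mul]
  congr 1
  rw [Finset.sum_comm]
  rw [Finset.sum_comm (f := fun s' s => (if s' = Function.update s v false then w s * (1 - p s)
      else 0) * F s')]
  rw [← Finset.sum_add_distrib]
  apply Finset.sum_congr rfl
  intro s _
  rw [sum_ite_eq_mul, sum_ite_eq_mul]
  ring


theorem cutDist_extend_off (w : (V → Bool) → ℝ) (v : V) (p : (V → Bool) → ℝ) (W : ℝ)
    {x y : V} (hx : x ≠ v) (hy : y ≠ v) :
    cutDist (extend w v p W) x y = cutDist w x y := by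
  rw [cutDist_eq, cutDist_eq, sum_extend]
  have h0 : sep (fun z : V => decide (z = v)) x y = 0 := by
    simp [sep, hx, hy]
  rw [h0, mul_zero, add_zero]
  apply Finset.sum_congr rfl
  intro s _
  have hb : ∀ b : Bool, sep (Function.update s v b) x y = sep s x y := by
    intro b
    simp [sep, Function.update_of_ne hx, Function.update_of_ne hy]
  rw [hb, hb]
  ring

theorem cutDist_extend_at (w : (V → Bool) → ℝ) (v : V) (p : (V → Bool) → ℝ) (W : ℝ)
    {a : V} (ha : a ≠ v) :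
    cutDist (extend w v p W) v a
      = ∑ s : V → Bool, w s * (p s * (if s a = false then 1 else 0)
            + (1 - p s) * (if s a = true then 1 else 0)) + W := by
  rw [cutDist_eq, sum_extend]
  have h0 : sep (fun z : V => decide (z = v)) v a = 1 := by
    simp [sep, ha]
  rw [h0, mul_one]
  congr 1
  apply Finset.sum_congr rfl
  intro s _
  have hb : ∀ b : Bool, sep (Function.update s v b) v a = if b ≠ s a then 1 else 0 := by
    intro b
    simp [sep, Function.update_of_ne ha]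
  rw [hb, hb]
  cases h : s a <;> simp

/-- Probability of placing the new point on the `true` side, as a function of the sides
`b1 b2 b3` of three anchors: the new point follows the anchors when they agree, and joins an
isolated anchor `i` with probability `θi`. -/
def pk (θ1 θ2 θ3 : ℝ) (b1 b2 b3 : Bool) : ℝ :=
  if b1 ≠ b2 ∧ b2 = b3 then (if b1 then θ1 else 1 - θ1)
  else if b2 ≠ b1 ∧ b1 = b3 then (if b2 then θ2 else 1 - θ2)
  else if b3 ≠ b1 ∧ b1 = b2 then (if b3 then θ3 else 1 - θ3)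
  else (if b1 then 1 else 0)

/-- Indicator that the first anchor is isolated. -/
def ind1 (b1 b2 b3 : Bool) : ℝ := if b1 ≠ b2 ∧ b2 = b3 then 1 else 0
/-- Indicator that the second anchor is isolated. -/
def ind2 (b1 b2 b3 : Bool) : ℝ := if b2 ≠ b1 ∧ b1 = b3 then 1 else 0
/-- Indicator that the third anchor is isolated. -/
def ind3 (b1 b2 b3 : Bool) : ℝ := if b3 ≠ b1 ∧ b1 = b2 then 1 else 0

theorem pk_nonneg {θ1 θ2 θ3 : ℝ} (h1 : 0 ≤ θ1) (h1' : θ1 ≤ 1) (h2 : 0 ≤ θ2) (h2' : θ2 ≤ 1)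
    (h3 : 0 ≤ θ3) (h3' : θ3 ≤ 1) (b1 b2 b3 : Bool) : 0 ≤ pk θ1 θ2 θ3 b1 b2 b3 := by
  cases b1 <;> cases b2 <;> cases b3 <;> simp [pk] <;> linarith

theorem pk_le_one {θ1 θ2 θ3 : ℝ} (h1 : 0 ≤ θ1) (h1' : θ1 ≤ 1) (h2 : 0 ≤ θ2) (h2' : θ2 ≤ 1)
    (h3 : 0 ≤ θ3) (h3' : θ3 ≤ 1) (b1 b2 b3 : Bool) : pk θ1 θ2 θ3 b1 b2 b3 ≤ 1 := by
  cases b1 <;> cases b2 <;> cases b3 <;> simp [pk] <;> linarith

theorem ind1_nonneg (b1 b2 b3 : Bool) : 0 ≤ ind1 b1 b2 b3 := by
  unfold ind1; split_ifs <;> norm_num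
theorem ind2_nonneg (b1 b2 b3 : Bool) : 0 ≤ ind2 b1 b2 b3 := by
  unfold ind2; split_ifs <;> norm_num
theorem ind3_nonneg (b1 b2 b3 : Bool) : 0 ≤ ind3 b1 b2 b3 := by
  unfold ind3; split_ifs <;> norm_num

theorem sep12 (b1 b2 b3 : Bool) :
    (if b1 ≠ b2 then (1 : ℝ) else 0) = ind1 b1 b2 b3 + ind2 b1 b2 b3 := by
  cases b1 <;> cases b2 <;> cases b3 <;> simp [ind1, ind2]
theorem sep13 (b1 b2 b3 : Bool) :
    (if b1 ≠ b3 then (1 : ℝ) else 0) = ind1 b1 b2 b3 + ind3 b1 b2 b3 := by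
  cases b1 <;> cases b2 <;> cases b3 <;> simp [ind1, ind3]
theorem sep23 (b1 b2 b3 : Bool) :
    (if b2 ≠ b3 then (1 : ℝ) else 0) = ind2 b1 b2 b3 + ind3 b1 b2 b3 := by
  cases b1 <;> cases b2 <;> cases b3 <;> simp [ind2, ind3]

theorem gk1 (θ1 θ2 θ3 : ℝ) (b1 b2 b3 : Bool) :
    pk θ1 θ2 θ3 b1 b2 b3 * (if b1 = false then 1 else 0)
        + (1 - pk θ1 θ2 θ3 b1 b2 b3) * (if b1 = true then 1 else 0)
      = (1 - θ1) * ind1 b1 b2 b3 + θ2 * ind2 b1 b2 b3 + θ3 * ind3 b1 b2 b3 := by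
  cases b1 <;> cases b2 <;> cases b3 <;> simp [pk, ind1, ind2, ind3]

theorem gk2 (θ1 θ2 θ3 : ℝ) (b1 b2 b3 : Bool) :
    pk θ1 θ2 θ3 b1 b2 b3 * (if b2 = false then 1 else 0)
        + (1 - pk θ1 θ2 θ3 b1 b2 b3) * (if b2 = true then 1 else 0)
      = θ1 * ind1 b1 b2 b3 + (1 - θ2) * ind2 b1 b2 b3 + θ3 * ind3 b1 b2 b3 := by
  cases b1 <;> cases b2 <;> cases b3 <;> simp [pk, ind1, ind2, ind3]

theorem gk3 (θ1 θ2 θ3 : ℝ) (b1 b2 b3 : Bool) :
    pk θ1 θ2 θ3 b1 b2 b3 * (if b3 = false then 1 else 0)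
        + (1 - pk θ1 θ2 θ3 b1 b2 b3) * (if b3 = true then 1 else 0)
      = θ1 * ind1 b1 b2 b3 + θ2 * ind2 b1 b2 b3 + (1 - θ3) * ind3 b1 b2 b3 := by
  cases b1 <;> cases b2 <;> cases b3 <;> simp [pk, ind1, ind2, ind3]


theorem frac_props {q M : ℝ} (hq : 0 ≤ q) (hqM : q ≤ M) :
    0 ≤ q / M ∧ q / M ≤ 1 ∧ q / M * M = q := by
  have hM : 0 ≤ M := le_trans hq hqM
  refine ⟨div_nonneg hq hM, div_le_one_of_le₀ hqM hM, ?_⟩
  by_cases h : M = 0
  · have : q = 0 := le_antisymm (h ▸ hqM) hq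
    simp [h, this]
  · exact div_mul_cancel₀ q h

/-- One-point extension over three anchors: if the target distances `r1 r2 r3` from the new
point `v` to the anchors are compatible with the cut semimetric on the anchors (all triangle
inequalities), the family can be changed, moving only `v`, so that `v` is at the prescribed
distances from the anchors. -/
theorem ext3 (w : (V → Bool) → ℝ) (hw : ∀ s, 0 ≤ w s) (v a1 a2 a3 : V)
    (h1 : a1 ≠ v) (h2 : a2 ≠ v) (h3 : a3 ≠ v) (r1 r2 r3 : ℝ)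
    (t12 : cutDist w a1 a2 ≤ r1 + r2) (t12a : r1 ≤ r2 + cutDist w a1 a2)
    (t12b : r2 ≤ r1 + cutDist w a1 a2)
    (t13 : cutDist w a1 a3 ≤ r1 + r3) (t13a : r1 ≤ r3 + cutDist w a1 a3)
    (t13b : r3 ≤ r1 + cutDist w a1 a3)
    (t23 : cutDist w a2 a3 ≤ r2 + r3) (t23a : r2 ≤ r3 + cutDist w a2 a3)
    (t23b : r3 ≤ r2 + cutDist w a2 a3) :
    ∃ w' : (V → Bool) → ℝ, (∀ s, 0 ≤ w' s) ∧
      (∀ x y, x ≠ v → y ≠ v → cutDist w' x y = cutDist w x y) ∧
      cutDist w' v a1 = r1 ∧ cutDist w' v a2 = r2 ∧ cutDist w' v a3 = r3 := by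
  obtain ⟨M1, hM1⟩ : ∃ M1 : ℝ, M1 = ∑ s : V → Bool, w s * ind1 (s a1) (s a2) (s a3) := ⟨_, rfl⟩
  obtain ⟨M2, hM2⟩ : ∃ M2 : ℝ, M2 = ∑ s : V → Bool, w s * ind2 (s a1) (s a2) (s a3) := ⟨_, rfl⟩
  obtain ⟨M3, hM3⟩ : ∃ M3 : ℝ, M3 = ∑ s : V → Bool, w s * ind3 (s a1) (s a2) (s a3) := ⟨_, rfl⟩
  have hM1n : 0 ≤ M1 := by
    rw [hM1]; exact Finset.sum_nonneg fun s _ => mul_nonneg (hw s) (ind1_nonneg _ _ _)
  have hM2n : 0 ≤ M2 := by
    rw [hM2]; exact Finset.sum_nonneg fun s _ => mul_nonneg (hw s) (ind2_nonneg _ _ _)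
  have hM3n : 0 ≤ M3 := by
    rw [hM3]; exact Finset.sum_nonneg fun s _ => mul_nonneg (hw s) (ind3_nonneg _ _ _)
  have e12 : cutDist w a1 a2 = M1 + M2 := by
    rw [cutDist_eq, hM1, hM2, ← Finset.sum_add_distrib]
    apply Finset.sum_congr rfl
    intro s _
    unfold sep
    rw [sep12 (s a1) (s a2) (s a3)]
    ring
  have e13 : cutDist w a1 a3 = M1 + M3 := by
    rw [cutDist_eq, hM1, hM3, ← Finset.sum_add_distrib]
    apply Finset.sum_congr rfl
    intro s _
    unfold sep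
    rw [sep13 (s a1) (s a2) (s a3)]
    ring
  have e23 : cutDist w a2 a3 = M2 + M3 := by
    rw [cutDist_eq, hM2, hM3, ← Finset.sum_add_distrib]
    apply Finset.sum_congr rfl
    intro s _
    unfold sep
    rw [sep23 (s a1) (s a2) (s a3)]
    ring
  rw [e12] at t12 t12a t12b
  rw [e13] at t13 t13a t13b
  rw [e23] at t23 t23a t23b
  obtain ⟨g1, hg1⟩ : ∃ g1 : ℝ, g1 = (r2 + r3 - (M2 + M3)) / 2 := ⟨_, rfl⟩
  obtain ⟨g2, hg2⟩ : ∃ g2 : ℝ, g2 = (r1 + r3 - (M1 + M3)) / 2 := ⟨_, rfl⟩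
  obtain ⟨g3, hg3⟩ : ∃ g3 : ℝ, g3 = (r1 + r2 - (M1 + M2)) / 2 := ⟨_, rfl⟩
  obtain ⟨W, hWdef⟩ : ∃ W : ℝ, W = min g1 (min g2 g3) := ⟨_, rfl⟩
  have hW0 : 0 ≤ W := by
    rw [hWdef]
    exact le_min (by linarith) (le_min (by linarith) (by linarith))
  have hWg1 : W ≤ g1 := by rw [hWdef]; exact min_le_left _ _
  have hWg2 : W ≤ g2 := by rw [hWdef]; exact (min_le_right _ _).trans (min_le_left _ _)
  have hWg3 : W ≤ g3 := by rw [hWdef]; exact (min_le_right _ _).trans (min_le_right _ _)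
  have hq1 : g1 - W ≤ M1 := by
    have : g1 - M1 ≤ W := by
      rw [hWdef]
      exact le_min (by linarith) (le_min (by linarith) (by linarith))
    linarith
  have hq2 : g2 - W ≤ M2 := by
    have : g2 - M2 ≤ W := by
      rw [hWdef]
      exact le_min (by linarith) (le_min (by linarith) (by linarith))
    linarith
  have hq3 : g3 - W ≤ M3 := by
    have : g3 - M3 ≤ W := by
      rw [hWdef]
      exact le_min (by linarith) (le_min (by linarith) (by linarith))
    linarith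
  obtain ⟨hθ10, hθ11, hθ1M⟩ := frac_props (sub_nonneg.mpr hWg1) hq1
  obtain ⟨hθ20, hθ21, hθ2M⟩ := frac_props (sub_nonneg.mpr hWg2) hq2
  obtain ⟨hθ30, hθ31, hθ3M⟩ := frac_props (sub_nonneg.mpr hWg3) hq3
  obtain ⟨θ1, hθ1⟩ : ∃ θ1 : ℝ, θ1 = (g1 - W) / M1 := ⟨_, rfl⟩
  obtain ⟨θ2, hθ2⟩ : ∃ θ2 : ℝ, θ2 = (g2 - W) / M2 := ⟨_, rfl⟩
  obtain ⟨θ3, hθ3⟩ : ∃ θ3 : ℝ, θ3 = (g3 - W) / M3 := ⟨_, rfl⟩
  rw [← hθ1] at hθ10 hθ11 hθ1M
  rw [← hθ2] at hθ20 hθ21 hθ2M
  rw [← hθ3] at hθ30 hθ31 hθ3M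
  have hsum : ∀ c1 c2 c3 : ℝ,
      ∑ s : V → Bool, w s * (c1 * ind1 (s a1) (s a2) (s a3) + c2 * ind2 (s a1) (s a2) (s a3)
        + c3 * ind3 (s a1) (s a2) (s a3)) = c1 * M1 + c2 * M2 + c3 * M3 := by
    intro c1 c2 c3
    rw [hM1, hM2, hM3, Finset.mul_sum, Finset.mul_sum, Finset.mul_sum,
      ← Finset.sum_add_distrib, ← Finset.sum_add_distrib]
    apply Finset.sum_congr rfl
    intro s _
    ring
  refine ⟨extend w v (fun s => pk θ1 θ2 θ3 (s a1) (s a2) (s a3)) W, ?_, ?_, ?_, ?_, ?_⟩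
  · exact extend_nonneg hw v
      (fun s => pk_nonneg hθ10 hθ11 hθ20 hθ21 hθ30 hθ31 _ _ _)
      (fun s => pk_le_one hθ10 hθ11 hθ20 hθ21 hθ30 hθ31 _ _ _) hW0
  · intro x y hx hy
    exact cutDist_extend_off w v _ W hx hy
  · rw [cutDist_extend_at w v _ W h1]
    simp only [gk1]
    rw [hsum]
    have : (1 - θ1) * M1 = M1 - (g1 - W) := by rw [← hθ1M]; ring
    linarith
  · rw [cutDist_extend_at w v _ W h2]
    simp only [gk2]
    rw [hsum]
    have : (1 - θ2) * M2 = M2 - (g2 - W) := by rw [← hθ2M]; ring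
    linarith
  · rw [cutDist_extend_at w v _ W h3]
    simp only [gk3]
    rw [hsum]
    have : (1 - θ3) * M3 = M3 - (g3 - W) := by rw [← hθ3M]; ring
    linarith


omit [Fintype V] in
theorem exists_three (A : Finset V) (hA : A.card ≤ 3) (hne : A.Nonempty) :
    ∃ a1 a2 a3 : V, a1 ∈ A ∧ a2 ∈ A ∧ a3 ∈ A ∧ ∀ a ∈ A, a = a1 ∨ a = a2 ∨ a = a3 := by
  have hpos : 0 < A.card := Finset.card_pos.mpr hne
  have hc : A.card = 1 ∨ A.card = 2 ∨ A.card = 3 := by omega
  rcases hc with hc | hc | hc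
  · obtain ⟨x, rfl⟩ := Finset.card_eq_one.mp hc
    exact ⟨x, x, x, by simp, by simp, by simp, by simp⟩
  · obtain ⟨x, y, _, rfl⟩ := Finset.card_eq_two.mp hc
    exact ⟨x, y, y, by simp, by simp, by simp, by simp⟩
  · obtain ⟨x, y, z, _, _, _, rfl⟩ := Finset.card_eq_three.mp hc
    exact ⟨x, y, z, by simp, by simp, by simp, by simp⟩

/-- One-point extension over an anchor set of at most three points. -/
theorem ext_set (d : V → V → ℝ) (hds : ∀ x y, d x y = d y x)
    (hdt : ∀ x y z, d x z ≤ d x y + d y z)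
    (w : (V → Bool) → ℝ) (hw : ∀ s, 0 ≤ w s) (A : Finset V) (hA : A.card ≤ 3)
    (v : V) (hv : v ∉ A) (hiso : ∀ a ∈ A, ∀ b ∈ A, cutDist w a b = d a b) :
    ∃ w' : (V → Bool) → ℝ, (∀ s, 0 ≤ w' s) ∧
      (∀ x y, x ≠ v → y ≠ v → cutDist w' x y = cutDist w x y) ∧
      ∀ a ∈ A, cutDist w' v a = d v a := by
  by_cases hne : A.Nonempty
  · obtain ⟨a1, a2, a3, m1, m2, m3, hall⟩ := exists_three A hA hne
    have n1 : a1 ≠ v := fun e => hv (e ▸ m1)
    have n2 : a2 ≠ v := fun e => hv (e ▸ m2)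
    have n3 : a3 ≠ v := fun e => hv (e ▸ m3)
    have key : ∀ a ∈ A, ∀ b ∈ A, cutDist w a b ≤ d v a + d v b ∧ d v a ≤ d v b + cutDist w a b ∧
        d v b ≤ d v a + cutDist w a b := by
      intro a ha b hb
      rw [hiso a ha b hb]
      refine ⟨?_, ?_, ?_⟩
      · have := hdt a v b
        rw [hds a v] at this
        exact this
      · have := hdt v b a
        rw [hds b a] at this
        exact this
      · exact hdt v a b
    obtain ⟨k12, k12a, k12b⟩ := key a1 m1 a2 m2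
    obtain ⟨k13, k13a, k13b⟩ := key a1 m1 a3 m3
    obtain ⟨k23, k23a, k23b⟩ := key a2 m2 a3 m3
    obtain ⟨w', hw', hoff, e1, e2, e3⟩ := ext3 w hw v a1 a2 a3 n1 n2 n3 (d v a1) (d v a2) (d v a3)
      k12 k12a k12b k13 k13a k13b k23 k23a k23b
    refine ⟨w', hw', hoff, ?_⟩
    intro a ha
    rcases hall a ha with rfl | rfl | rfl
    · exact e1
    · exact e2
    · exact e3
  · rw [Finset.not_nonempty_iff_eq_empty] at hne
    subst hne
    exact ⟨w, hw, fun _ _ _ _ => rfl, by simp⟩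

/-- Completing a bag of at most four points: if the family is isometric on `A ⊆ β`, it can be
changed, moving only the points of `β \ A`, so that it is isometric on all of `β`. -/
theorem bag_complete (d : V → V → ℝ) (hd0 : ∀ x, d x x = 0) (hds : ∀ x y, d x y = d y x)
    (hdt : ∀ x y z, d x z ≤ d x y + d y z) (β : Finset V) (hβ : β.card ≤ 4) :
    ∀ (n : ℕ) (A : Finset V), A ⊆ β → (β \ A).card = n →
      ∀ w : (V → Bool) → ℝ, (∀ s, 0 ≤ w s) → (∀ a ∈ A, ∀ b ∈ A, cutDist w a b = d a b) →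
      ∃ w' : (V → Bool) → ℝ, (∀ s, 0 ≤ w' s) ∧ (∀ x ∈ β, ∀ y ∈ β, cutDist w' x y = d x y) ∧
        (∀ x y, x ∉ β \ A → y ∉ β \ A → cutDist w' x y = cutDist w x y) := by
  intro n
  induction n with
  | zero =>
    intro A hA hcard w hw hiso
    have hsub : β ⊆ A := by
      rw [← Finset.sdiff_eq_empty_iff_subset]
      exact Finset.card_eq_zero.mp hcard
    exact ⟨w, hw, fun x hx y hy => hiso x (hsub hx) y (hsub hy), fun _ _ _ _ => rfl⟩
  | succ n ih =>
    intro A hA hcard w hw hiso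
    have hne : (β \ A).Nonempty := by
      rw [← Finset.card_pos]; omega
    obtain ⟨v, hv⟩ := hne
    have hvβ : v ∈ β := (Finset.mem_sdiff.mp hv).1
    have hvA : v ∉ A := (Finset.mem_sdiff.mp hv).2
    have hAcard : A.card ≤ 3 := by
      have h1 : A ⊆ β.erase v := Finset.subset_erase.mpr ⟨hA, hvA⟩
      have h2 := Finset.card_le_card h1
      rw [Finset.card_erase_of_mem hvβ] at h2
      omega
    obtain ⟨w1, hw1, hoff1, hat1⟩ := ext_set d hds hdt w hw A hAcard v hvA hiso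
    have hA' : insert v A ⊆ β := Finset.insert_subset hvβ hA
    have hcard' : (β \ insert v A).card = n := by
      rw [Finset.sdiff_insert, Finset.card_erase_of_mem hv, hcard]
      rfl
    have hiso' : ∀ a ∈ insert v A, ∀ b ∈ insert v A, cutDist w1 a b = d a b := by
      intro a ha b hb
      rcases Finset.mem_insert.mp ha with hav | haA
      · rcases Finset.mem_insert.mp hb with hbv | hbA
        · rw [hav, hbv, cutDist_self, hd0]
        · rw [hav]
          exact hat1 b hbA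
      · rcases Finset.mem_insert.mp hb with hbv | hbA
        · rw [hbv, cutDist_comm, hat1 a haA, hds]
        · have na : a ≠ v := fun e => hvA (e ▸ haA)
          have nb : b ≠ v := fun e => hvA (e ▸ hbA)
          rw [hoff1 a b na nb]
          exact hiso a haA b hbA
    obtain ⟨w', hw', hisoβ, hoff'⟩ := ih (insert v A) hA' hcard' w1 hw1 hiso'
    refine ⟨w', hw', hisoβ, ?_⟩
    intro x y hx hy
    have hx' : x ∉ β \ insert v A := by
      intro h
      apply hx
      rw [Finset.mem_sdiff] at h ⊢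
      exact ⟨h.1, fun hxA => h.2 (Finset.mem_insert_of_mem hxA)⟩
    have hy' : y ∉ β \ insert v A := by
      intro h
      apply hy
      rw [Finset.mem_sdiff] at h ⊢
      exact ⟨h.1, fun hyA => h.2 (Finset.mem_insert_of_mem hyA)⟩
    have nx : x ≠ v := fun e => hx (e ▸ hv)
    have ny : y ≠ v := fun e => hy (e ▸ hv)
    rw [hoff' x y hx' hy', hoff1 x y nx ny]

end Vale.Agent.H63
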