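import Vale.Agent.H63.CutMeasure

/-!
Gluing cut families along a tree decomposition with bags of at most four points.
-/

namespace Vale.Agent.H63

open Finset

universe u

variable {V : Type*} [Fintype V] [DecidableEq V]

/-- A path between two vertices different from `t` avoids `t` when `t` has a unique neighbour. -/
theorem leaf_not_mem_path {ι : Type*} (T : SimpleGraph ι) (t t' : ι)
    (huniq : ∀ x, T.Adj t x → x = t') {a b : ι} (ha : a ≠ t) (hb : b ≠ t)
    (q : T.Walk a b) (hq : q.IsPath) : t ∉ q.support := by
  intro ht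
  obtain ⟨q1, q2, rfl⟩ := SimpleGraph.Walk.mem_support_iff_exists_append.mp ht
  have hn1 : ¬ q1.Nil := SimpleGraph.Walk.not_nil_of_ne ha
  have hn2 : ¬ q2.Nil := SimpleGraph.Walk.not_nil_of_ne (Ne.symm hb)
  have e1 : q1.penultimate = t' := huniq _ (q1.adj_penultimate hn1).symm
  have e2 : q2.snd = t' := huniq _ (q2.adj_snd hn2)
  have m1 : t' ∈ q1.support := by
    rw [← e1]
    exact q1.getVert_mem_support _
  have m2 : t' ∈ q2.support.tail := by
    rw [← e2]
    exact SimpleGraph.Walk.snd_mem_tail_support hn2
  have hnd := hq.support_nodup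
  rw [SimpleGraph.Walk.support_append] at hnd
  exact (List.nodup_append.mp hnd).2.2 t' m1 t' m2 rfl

/-- Walk form of the subtree property of a tree decomposition: any two bags containing `v` are
joined by a walk in the tree all of whose bags contain `v`. -/
def WalkRIP {ι : Type*} (T : SimpleGraph ι) (B : ι → Finset V) : Prop :=
  ∀ v : V, ∀ s s' : ι, v ∈ B s → v ∈ B s' → ∃ p : T.Walk s s', ∀ r ∈ p.support, v ∈ B r

/-- Core gluing theorem: for a pseudometric `d` on `V` and a tree of bags of at most four points
with the subtree property, some nonnegative weighting of the cuts of `V` has a cut semimetric that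
agrees with `d` on every pair of points sharing a bag. -/
theorem core (d : V → V → ℝ) (hd0 : ∀ x, d x x = 0) (hds : ∀ x y, d x y = d y x)
    (hdt : ∀ x y z, d x z ≤ d x y + d y z) :
    ∀ (n : ℕ) (ι : Type u) [Fintype ι] (T : SimpleGraph ι) (B : ι → Finset V),
      Fintype.card ι = n → T.IsTree → (∀ t, (B t).card ≤ 4) → WalkRIP T B →
      ∃ w : (V → Bool) → ℝ, (∀ s, 0 ≤ w s) ∧
        ∀ t, ∀ x ∈ B t, ∀ y ∈ B t, cutDist w x y = d x y := by
  intro n
  induction n using Nat.strong_induction_on with
  | _ n ih =>
    intro ι _ T B hcard hT hB hrip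
    classical
    have hne : Nonempty ι := hT.1.nonempty
    by_cases h1 : Fintype.card ι = 1
    · obtain ⟨t0, ht0⟩ := Fintype.card_eq_one_iff.mp h1
      obtain ⟨w', hw', hiso, _⟩ := bag_complete d hd0 hds hdt (B t0) (hB t0) _ ∅
        (Finset.empty_subset _) rfl (fun _ => 0) (fun _ => le_refl 0) (by simp)
      refine ⟨w', hw', ?_⟩
      intro t x hx y hy
      rw [ht0 t] at hx hy
      exact hiso x hx y hy
    · have hpos : 0 < Fintype.card ι := Fintype.card_pos
      have h2 : 1 < Fintype.card ι := by omega
      have : Nontrivial ι := Fintype.one_lt_card_iff_nontrivial.mp h2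
      obtain ⟨t, ht⟩ := hT.exists_vert_degree_one_of_nontrivial
      obtain ⟨t', hadj, huniq⟩ := SimpleGraph.degree_eq_one_iff_existsUnique_adj.mp ht
      have hT' : (T.induce ({t}ᶜ : Set ι)).IsTree :=
        ⟨hT.1.induce_compl_singleton_of_degree_eq_one ht, hT.2.induce _⟩
      have hlt : Fintype.card (↥({t}ᶜ : Set ι)) < n := by
        rw [← hcard]
        exact Fintype.card_subtype_lt (p := fun s => s ∈ ({t}ᶜ : Set ι)) (x := t) (by simp)
      have hrip' : WalkRIP (T.induce ({t}ᶜ : Set ι)) (fun s => B s.1) := by
        intro v s s' hs hs'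
        obtain ⟨p, hp⟩ := hrip v s.1 s'.1 hs hs'
        have hq : p.bypass.IsPath := p.bypass_isPath
        have hsub : p.bypass.support ⊆ p.support := p.support_bypass_subset_support
        have hnot : t ∉ p.bypass.support :=
          leaf_not_mem_path T t t' (fun x hx => huniq x hx) s.2 s'.2 p.bypass hq
        have hall : ∀ x ∈ p.bypass.support, x ∈ ({t}ᶜ : Set ι) := by
          intro x hx hxt
          rw [Set.mem_singleton_iff] at hxt
          exact hnot (hxt ▸ hx)
        refine ⟨p.bypass.induce ({t}ᶜ : Set ι) hall, ?_⟩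
        intro r hr
        rw [SimpleGraph.Walk.support_induce] at hr
        have hr' : r.1 ∈ p.bypass.support := by
          rw [List.mem_attachWith] at hr
          exact hr
        exact hp r.1 (hsub hr')
      obtain ⟨w, hw, hiso⟩ := ih _ hlt (↥({t}ᶜ : Set ι)) (T.induce ({t}ᶜ : Set ι))
        (fun s => B s.1) rfl hT' (fun s => hB s.1) hrip'
      have hP1 : ∀ x ∈ B t, ∀ s, s ≠ t → x ∈ B s → x ∈ B t' := by
        intro x hx s hs hxs
        obtain ⟨p, hp⟩ := hrip x t s hx hxs
        cases p with
        | nil => exact absurd rfl hs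
        | cons h p' =>
          have e := huniq _ h
          subst e
          exact hp _ (by simp)
      have ht'ne : t' ∈ ({t}ᶜ : Set ι) := by
        intro e
        rw [Set.mem_singleton_iff] at e
        exact hadj.ne' e
      have hisoA : ∀ a ∈ B t ∩ B t', ∀ b ∈ B t ∩ B t', cutDist w a b = d a b := by
        intro a ha b hb
        exact hiso ⟨t', ht'ne⟩ a (Finset.mem_inter.mp ha).2 b (Finset.mem_inter.mp hb).2
      obtain ⟨w', hw', hisoβ, hoff⟩ := bag_complete d hd0 hds hdt (B t) (hB t) _ (B t ∩ B t')
        Finset.inter_subset_left rfl w hw hisoA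
      refine ⟨w', hw', ?_⟩
      intro s x hx y hy
      by_cases hs : s = t
      · subst hs
        exact hisoβ x hx y hy
      · have key : ∀ z ∈ B s, z ∉ B t \ (B t ∩ B t') := by
          intro z hz hmem
          rw [Finset.mem_sdiff] at hmem
          exact hmem.2 (Finset.mem_inter.mpr ⟨hmem.1, hP1 z hmem.1 s hs hz⟩)
        rw [hoff x y (key x hx) (key y hy)]
        have hs' : s ∈ ({t}ᶜ : Set ι) := by
          intro e
          rw [Set.mem_singleton_iff] at e
          exact hs e
        exact hiso ⟨s, hs'⟩ x hx y hy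

end Vale.Agent.H63
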